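import Mathlib

/-!
Combinatorial lemmas for the static statement (S) of P235 (pieces P1, P2, P3 of helper885):
* usable_bad : for a permutation of Fin k few points c carry a long descent compared with
  the flux through c;
* maxineq, maxineq_fin : the one-sided maximal inequality;
* transport : weighted double counting, level_sum : the final summation.
-/

namespace P235S541

open Finset

/-- Dyadic lower bound for the harmonic sum. -/
theorem harm_lower (F : ℕ) (hF : 0 < F) (N : ℕ) :
    (N : ℝ) / 2 ≤ ∑ j ∈ Finset.Ico F (2 ^ N * F), (1 : ℝ) / (j : ℝ) := by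
  induction N with
  | zero => simp
  | succ N ih =>
    have h1 : F ≤ 2 ^ N * F := Nat.le_mul_of_pos_left F (by positivity)
    have h2 : 2 ^ N * F ≤ 2 ^ (N + 1) * F := by
      apply Nat.mul_le_mul_right
      exact Nat.pow_le_pow_right (by norm_num) (Nat.le_succ N)
    rw [← Finset.sum_Ico_consecutive _ h1 h2]
    have h3 : (1 : ℝ) / 2 ≤ ∑ j ∈ Finset.Ico (2 ^ N * F) (2 ^ (N + 1) * F), (1 : ℝ) / (j : ℝ) := by
      have h4 : ∀ j ∈ Finset.Ico (2 ^ N * F) (2 ^ (N + 1) * F),
          (1 : ℝ) / ((2 ^ (N + 1) * F : ℕ) : ℝ) ≤ (1 : ℝ) / (j : ℝ) := by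
        intro j hj
        rw [Finset.mem_Ico] at hj
        have hj0 : 0 < j := lt_of_lt_of_le (by positivity) hj.1
        apply one_div_le_one_div_of_le (by exact_mod_cast hj0)
        exact_mod_cast hj.2.le
      have h5 := Finset.sum_le_sum h4
      rw [Finset.sum_const, Nat.card_Ico, nsmul_eq_mul] at h5
      refine le_trans (le_of_eq ?_) h5
      have h6 : 2 ^ (N + 1) * F - 2 ^ N * F = 2 ^ N * F := by
        rw [pow_succ]; have : 2 ^ N * 2 * F = 2 ^ N * F + 2 ^ N * F := by ring
        omega
      rw [h6]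
      have hFr : (F : ℝ) ≠ 0 := by exact_mod_cast hF.ne'
      push_cast
      field_simp
      ring
    push_cast
    linarith

/-- Reindexing of the weight sum of one interval. -/
theorem interval_sum (l c F : ℕ) (h : l ≤ c) :
    ∑ t ∈ Finset.Ioc l c, (1 : ℝ) / ((c - t + F : ℕ) : ℝ)
      = ∑ j ∈ Finset.Ico F (F + (c - l)), (1 : ℝ) / (j : ℝ) := by
  apply Finset.sum_bij (fun t _ => c - t + F)
  · intro t ht
    rw [Finset.mem_Ioc] at ht
    rw [Finset.mem_Ico]
    omega
  · intro t ht t' ht' hh
    rw [Finset.mem_Ioc] at ht ht'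
    omega
  · intro j hj
    rw [Finset.mem_Ico] at hj
    refine ⟨c - (j - F), ?_, ?_⟩
    · rw [Finset.mem_Ioc]; omega
    · omega
  · intro t ht
    rfl

/-- The interval lemma: intervals (l c, c], c in s, inside [0, k) with different right ends;
if every one of them is at least 2^N times as long as the number of those through its right
end, then there are at most 2k/N of them. -/
theorem interval_lemma (s : Finset ℕ) (l F : ℕ → ℕ) (k N : ℕ)
    (hk : ∀ c ∈ s, c < k)
    (hF : ∀ c ∈ s, (s.filter fun c' => c ≤ c' ∧ l c' < c).card ≤ F c)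
    (hl : ∀ c ∈ s, l c < c)
    (hlong : ∀ c ∈ s, 2 ^ N * F c ≤ F c + (c - l c)) :
    N * s.card ≤ 2 * k := by
  have hF0 : ∀ c ∈ s, 0 < F c := by
    intro c hc
    refine lt_of_lt_of_le ?_ (hF c hc)
    exact Finset.card_pos.mpr ⟨c, by simp [hc, hl c hc]⟩
  have h1 : ∀ c ∈ s, (N : ℝ) / 2 ≤ ∑ t ∈ Finset.Ioc (l c) c, (1 : ℝ) / ((c - t + F c : ℕ) : ℝ) := by
    intro c hc
    rw [interval_sum (l c) c (F c) (hl c hc).le]
    refine le_trans (harm_lower (F c) (hF0 c hc) N) ?_
    apply Finset.sum_le_sum_of_subset_of_nonneg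
    · intro j hj
      rw [Finset.mem_Ico] at hj ⊢
      exact ⟨hj.1, lt_of_lt_of_le hj.2 (hlong c hc)⟩
    · intro j _ _
      positivity
  have h2 : ∑ c ∈ s, ∑ t ∈ Finset.Ioc (l c) c, (1 : ℝ) / ((c - t + F c : ℕ) : ℝ)
      = ∑ t ∈ Finset.range k, ∑ c ∈ s.filter (fun c => l c < t ∧ t ≤ c),
          (1 : ℝ) / ((c - t + F c : ℕ) : ℝ) := by
    have h3 : ∀ c ∈ s, ∑ t ∈ Finset.Ioc (l c) c, (1 : ℝ) / ((c - t + F c : ℕ) : ℝ)
        = ∑ t ∈ Finset.range k, if (l c < t ∧ t ≤ c) then (1 : ℝ) / ((c - t + F c : ℕ) : ℝ) else 0 := by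
      intro c hc
      rw [← Finset.sum_filter]
      apply Finset.sum_congr _ (fun _ _ => rfl)
      ext t
      have := hk c hc
      simp only [Finset.mem_Ioc, Finset.mem_filter, Finset.mem_range]
      constructor
      · rintro ⟨a, b⟩; exact ⟨by omega, a, b⟩
      · rintro ⟨_, a, b⟩; exact ⟨a, b⟩
    rw [Finset.sum_congr rfl h3, Finset.sum_comm]
    apply Finset.sum_congr rfl
    intro t _
    rw [Finset.sum_filter]
  have h4 : ∀ t ∈ Finset.range k, ∑ c ∈ s.filter (fun c => l c < t ∧ t ≤ c),
          (1 : ℝ) / ((c - t + F c : ℕ) : ℝ) ≤ 1 := by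
    intro t _
    set B := s.filter (fun c => l c < t ∧ t ≤ c) with hB
    have h5 : ∀ c ∈ B, (1 : ℝ) / ((c - t + F c : ℕ) : ℝ) ≤ 1 / (B.card : ℝ) := by
      intro c hc
      have hc' := hc
      rw [hB, Finset.mem_filter] at hc'
      obtain ⟨hcs, hct1, hct2⟩ := hc'
      have hBpos : 0 < B.card := Finset.card_pos.mpr ⟨c, hc⟩
      apply one_div_le_one_div_of_le (by exact_mod_cast hBpos)
      have h6 : B ⊆ (Finset.Ico t c) ∪ (s.filter fun c' => c ≤ c' ∧ l c' < c) := by
        intro c' hc'
        rw [hB, Finset.mem_filter] at hc'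
        rw [Finset.mem_union, Finset.mem_Ico, Finset.mem_filter]
        rcases lt_or_ge c' c with h | h
        · left; exact ⟨hc'.2.2, h⟩
        · right; exact ⟨hc'.1, h, by omega⟩
      have h7 := Finset.card_le_card h6
      have h8 := Finset.card_union_le (Finset.Ico t c) (s.filter fun c' => c ≤ c' ∧ l c' < c)
      rw [Nat.card_Ico] at h8
      have h9 := hF c hcs
      exact_mod_cast (by omega : B.card ≤ c - t + F c)
    refine le_trans (Finset.sum_le_sum h5) ?_
    rw [Finset.sum_const, nsmul_eq_mul]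
    rcases Nat.eq_zero_or_pos B.card with h | h
    · rw [h]; simp
    · have : (B.card : ℝ) ≠ 0 := by exact_mod_cast h.ne'
      rw [mul_one_div_cancel this]
  have h10 : (s.card : ℝ) * ((N : ℝ) / 2) ≤ k := by
    calc (s.card : ℝ) * ((N : ℝ) / 2) = ∑ c ∈ s, (N : ℝ) / 2 := by
          rw [Finset.sum_const, nsmul_eq_mul]
      _ ≤ ∑ c ∈ s, ∑ t ∈ Finset.Ioc (l c) c, (1 : ℝ) / ((c - t + F c : ℕ) : ℝ) :=
          Finset.sum_le_sum h1
      _ = _ := h2
      _ ≤ ∑ t ∈ Finset.range k, (1 : ℝ) := Finset.sum_le_sum h4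
      _ = k := by simp
  have h11 : (N : ℝ) * s.card ≤ 2 * k := by linarith
  exact_mod_cast h11

/-- Conservation: as many points jump over c upwards as downwards. -/
theorem flux_eq {k : ℕ} (pi : Equiv.Perm (Fin k)) (c : Fin k) :
    (univ.filter fun a : Fin k => a < c ∧ c ≤ pi a).card
      = (univ.filter fun a : Fin k => c ≤ a ∧ pi a < c).card := by
  have h1 : (univ.filter fun a : Fin k => a < c).card
      = (univ.filter fun a : Fin k => pi a < c).card := by
    symm
    apply Finset.card_bij (fun a _ => pi a)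
    · intro a ha; simpa using ha
    · intro a _ b _ h; exact pi.injective h
    · intro b hb; exact ⟨pi.symm b, by simpa using hb, by simp⟩
  have h2 : (univ.filter fun a : Fin k => a < c).card
      = (univ.filter fun a : Fin k => a < c ∧ c ≤ pi a).card
        + (univ.filter fun a : Fin k => a < c ∧ pi a < c).card := by
    rw [← Finset.card_union_of_disjoint]
    · congr 1
      ext a
      simp only [Finset.mem_filter, Finset.mem_univ, true_and, Finset.mem_union]
      constructor
      · intro h
        rcases lt_or_ge (pi a) c with h' | h'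
        · right; exact ⟨h, h'⟩
        · left; exact ⟨h, h'⟩
      · rintro (h | h)
        · exact h.1
        · exact h.1
    · rw [Finset.disjoint_filter]
      intro a _ h h'
      exact absurd h'.2 (not_lt.mpr h.2)
  have h3 : (univ.filter fun a : Fin k => pi a < c).card
      = (univ.filter fun a : Fin k => c ≤ a ∧ pi a < c).card
        + (univ.filter fun a : Fin k => a < c ∧ pi a < c).card := by
    rw [← Finset.card_union_of_disjoint]
    · congr 1
      ext a
      simp only [Finset.mem_filter, Finset.mem_univ, true_and, Finset.mem_union]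
      constructor
      · intro h
        rcases lt_or_ge a c with h' | h'
        · right; exact ⟨h', h⟩
        · left; exact ⟨h', h⟩
      · rintro (h | h)
        · exact h.2
        · exact h.2
    · rw [Finset.disjoint_filter]
      intro a _ h h'
      exact absurd h'.1 (not_lt.mpr h.1)
  omega

/-- (P1), general form: F any function at least the flux, M any number with 2^N <= M + 1. -/
theorem usable_bad' (k N M : ℕ) (hM : 2 ^ N ≤ M + 1) (pi : Equiv.Perm (Fin k)) :
    N * (univ.filter fun c : Fin k => pi c < c ∧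
      M * (univ.filter fun a : Fin k => a < c ∧ c ≤ pi a).card < (c : ℕ) - (pi c : ℕ)).card
      ≤ 2 * k := by
  classical
  set B := univ.filter fun c : Fin k => pi c < c ∧
      M * (univ.filter fun a : Fin k => a < c ∧ c ≤ pi a).card < (c : ℕ) - (pi c : ℕ) with hB
  let l : ℕ → ℕ := fun c => if h : c < k then (pi ⟨c, h⟩ : ℕ) else 0
  let F : ℕ → ℕ := fun c => if h : c < k then
    (univ.filter fun a : Fin k => a < ⟨c, h⟩ ∧ ⟨c, h⟩ ≤ pi a).card else 0
  have hl' : ∀ c : Fin k, l (c : ℕ) = pi c := by
    intro c; simp [l, c.2]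
  have hF' : ∀ c : Fin k, F (c : ℕ) = (univ.filter fun a : Fin k => a < c ∧ c ≤ pi a).card := by
    intro c; simp [F, c.2]
  have hcard : (B.map Fin.valEmbedding).card = B.card := Finset.card_map _
  rw [← hcard]
  apply interval_lemma (B.map Fin.valEmbedding) l F k N
  · intro c hc
    rw [Finset.mem_map] at hc
    obtain ⟨c', _, rfl⟩ := hc
    exact c'.2
  · intro c hc
    rw [Finset.mem_map] at hc
    obtain ⟨c', hc', rfl⟩ := hc
    change _ ≤ F (c' : ℕ)
    rw [hF' c', flux_eq]
    have : ((B.map Fin.valEmbedding).filter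
        fun x => (Fin.valEmbedding c' : ℕ) ≤ x ∧ l x < (Fin.valEmbedding c' : ℕ))
        ⊆ (univ.filter fun a : Fin k => c' ≤ a ∧ pi a < c').map Fin.valEmbedding := by
      intro x hx
      rw [Finset.mem_filter, Finset.mem_map] at hx
      obtain ⟨⟨a, ha, rfl⟩, h1, h2⟩ := hx
      rw [Finset.mem_map]
      refine ⟨a, ?_, rfl⟩
      simp only [Finset.mem_filter, Finset.mem_univ, true_and]
      change l (a : ℕ) < _ at h2
      rw [hl'] at h2
      exact ⟨h1, h2⟩
    have h3 := Finset.card_le_card this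
    rw [Finset.card_map] at h3
    exact h3
  · intro c hc
    rw [Finset.mem_map] at hc
    obtain ⟨c', hc', rfl⟩ := hc
    change l (c' : ℕ) < c'
    rw [hl']
    rw [hB, Finset.mem_filter] at hc'
    exact hc'.2.1
  · intro c hc
    rw [Finset.mem_map] at hc
    obtain ⟨c', hc', rfl⟩ := hc
    change 2 ^ N * F (c' : ℕ) ≤ F (c' : ℕ) + ((c' : ℕ) - l (c' : ℕ))
    rw [hl', hF']
    rw [hB, Finset.mem_filter] at hc'
    have h1 := hc'.2.2
    have h2 : 2 ^ N * (univ.filter fun a : Fin k => a < c' ∧ c' ≤ pi a).card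
        ≤ (M + 1) * (univ.filter fun a : Fin k => a < c' ∧ c' ≤ pi a).card :=
      Nat.mul_le_mul_right _ hM
    rw [add_mul, one_mul] at h2
    omega

/-- (P1). -/
theorem usable_bad (k N : ℕ) (pi : Equiv.Perm (Fin k)) :
    N * (univ.filter fun c : Fin k => pi c < c ∧
      2 ^ N * (univ.filter fun a : Fin k => a < c ∧ c ≤ pi a).card < (c : ℕ) - (pi c : ℕ)).card
      ≤ 2 * k :=
  usable_bad' k N (2 ^ N) (Nat.le_succ _) pi

/-- The one-sided maximal inequality, windows [l, c). -/
theorem maxineq (K : ℕ) (C : Finset ℕ) (n : ℕ) :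
    ((Finset.range (n + 1)).filter fun c =>
      ∃ l, l < c ∧ c - l < K * (C.filter fun x => l ≤ x ∧ x < c).card).card
      ≤ K * (C.filter fun x => x < n).card := by
  classical
  induction n using Nat.strong_induction_on with
  | _ n ih =>
    by_cases hn : ∃ l, l < n ∧ n - l < K * (C.filter fun x => l ≤ x ∧ x < n).card
    · obtain ⟨l, hl, hh⟩ := hn
      have h1 := ih l hl
      have h2 : ((Finset.range (n + 1)).filter fun c =>
          ∃ l, l < c ∧ c - l < K * (C.filter fun x => l ≤ x ∧ x < c).card)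
          ⊆ ((Finset.range (l + 1)).filter fun c =>
          ∃ l, l < c ∧ c - l < K * (C.filter fun x => l ≤ x ∧ x < c).card)
            ∪ Finset.Ioc l n := by
        intro c hc
        rw [Finset.mem_filter, Finset.mem_range] at hc
        rw [Finset.mem_union, Finset.mem_filter, Finset.mem_range, Finset.mem_Ioc]
        rcases Nat.lt_or_ge l c with h | h
        · right; omega
        · left; exact ⟨by omega, hc.2⟩
      have h3 := Finset.card_le_card h2
      have h4 := Finset.card_union_le ((Finset.range (l + 1)).filter fun c =>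
          ∃ l, l < c ∧ c - l < K * (C.filter fun x => l ≤ x ∧ x < c).card) (Finset.Ioc l n)
      rw [Nat.card_Ioc] at h4
      have h5 : (C.filter fun x => x < n).card
          = (C.filter fun x => x < l).card + (C.filter fun x => l ≤ x ∧ x < n).card := by
        rw [← Finset.card_union_of_disjoint]
        · congr 1
          ext x
          simp only [Finset.mem_filter, Finset.mem_union]
          constructor
          · rintro ⟨a, b⟩
            rcases Nat.lt_or_ge x l with h | h
            · left; exact ⟨a, h⟩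
            · right; exact ⟨a, h, b⟩
          · rintro (⟨a, b⟩ | ⟨a, b, c⟩)
            · exact ⟨a, by omega⟩
            · exact ⟨a, c⟩
        · rw [Finset.disjoint_filter]
          intro x _ h h'
          omega
      rw [h5, Nat.mul_add]
      omega
    · have h1 : ((Finset.range (n + 1)).filter fun c =>
          ∃ l, l < c ∧ c - l < K * (C.filter fun x => l ≤ x ∧ x < c).card)
          = ((Finset.range n).filter fun c =>
          ∃ l, l < c ∧ c - l < K * (C.filter fun x => l ≤ x ∧ x < c).card) := by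
        ext c
        simp only [Finset.mem_filter, Finset.mem_range]
        constructor
        · rintro ⟨a, b⟩
          refine ⟨?_, b⟩
          rcases Nat.lt_or_ge c n with h | h
          · exact h
          · have : c = n := by omega
            subst this
            exact absurd b hn
        · rintro ⟨a, b⟩
          exact ⟨by omega, b⟩
      rw [h1]
      rcases Nat.eq_zero_or_pos n with h0 | h0
      · subst h0; simp
      · obtain ⟨m, rfl⟩ : ∃ m, n = m + 1 := ⟨n - 1, by omega⟩
        refine le_trans (ih m (Nat.lt_succ_self m)) ?_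
        apply Nat.mul_le_mul_left
        apply Finset.card_le_card
        intro x hx
        rw [Finset.mem_filter] at hx ⊢
        exact ⟨hx.1, by omega⟩

open Classical in
/-- (P2): the one-sided maximal inequality on Fin k, windows [c - w, c). -/
theorem maxineq_fin (k K : ℕ) (C : Finset (Fin k)) :
    (univ.filter fun c : Fin k => ∃ w : ℕ, 1 ≤ w ∧
      w < K * (C.filter fun x : Fin k => (c : ℕ) ≤ (x : ℕ) + w ∧ x < c).card).card
      ≤ K * C.card := by
  set B := univ.filter fun c : Fin k => ∃ w : ℕ, 1 ≤ w ∧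
      w < K * (C.filter fun x : Fin k => (c : ℕ) ≤ (x : ℕ) + w ∧ x < c).card with hB
  have h0 := maxineq K (C.map Fin.valEmbedding) k
  have h1 : B.map Fin.valEmbedding ⊆ ((Finset.range (k + 1)).filter fun c =>
      ∃ l, l < c ∧ c - l < K * ((C.map Fin.valEmbedding).filter fun x => l ≤ x ∧ x < c).card) := by
    intro x hx
    rw [Finset.mem_map] at hx
    obtain ⟨c, hc, rfl⟩ := hx
    rw [hB, Finset.mem_filter] at hc
    obtain ⟨_, w, hw1, hw2⟩ := hc
    rw [Finset.mem_filter, Finset.mem_range]
    have hc0 : 0 < (c : ℕ) := by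
      by_contra h
      have h' : (c : ℕ) = 0 := by omega
      have : (C.filter fun x : Fin k => (c : ℕ) ≤ (x : ℕ) + w ∧ x < c) = ∅ := by
        apply Finset.filter_false_of_mem
        intro x _ hx
        have := hx.2
        rw [Fin.lt_def] at this
        omega
      rw [this] at hw2
      simp at hw2
    refine ⟨by have := c.2; change (c : ℕ) < k + 1; omega, (c : ℕ) - w, ?_, ?_⟩
    · change (c : ℕ) - w < (c : ℕ); omega
    · change (c : ℕ) - ((c : ℕ) - w) < _
      have h2 : (C.filter fun x : Fin k => (c : ℕ) ≤ (x : ℕ) + w ∧ x < c).map Fin.valEmbedding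
          ⊆ ((C.map Fin.valEmbedding).filter
            fun x => (c : ℕ) - w ≤ x ∧ x < (Fin.valEmbedding c : ℕ)) := by
        intro x hx
        rw [Finset.mem_map] at hx
        obtain ⟨y, hy, rfl⟩ := hx
        rw [Finset.mem_filter] at hy
        rw [Finset.mem_filter, Finset.mem_map]
        refine ⟨⟨y, hy.1, rfl⟩, ?_, ?_⟩
        · change (c : ℕ) - w ≤ (y : ℕ); omega
        · exact hy.2.2
      have h3 := Finset.card_le_card h2
      rw [Finset.card_map] at h3
      have h4 := Nat.mul_le_mul_left K h3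
      omega
  have h2 := Finset.card_le_card h1
  rw [Finset.card_map] at h2
  refine le_trans h2 (le_trans h0 ?_)
  apply Nat.mul_le_mul_left
  refine le_trans (Finset.card_filter_le _ _) ?_
  rw [Finset.card_map]

/-- (P3): weighted double counting. -/
theorem transport {α β : Type*} (S : Finset α) (T : Finset β) (P : α → β → ℝ)
    (f : α → ℝ) (g : β → ℝ) (θ : ℝ)
    (hP0 : ∀ v ∈ S, ∀ w ∈ T, 0 ≤ P v w)
    (hP1 : ∀ v ∈ S, 1 ≤ ∑ w ∈ T, P v w)
    (hP2 : ∀ w ∈ T, ∑ v ∈ S, P v w ≤ θ)
    (hf0 : ∀ v ∈ S, 0 ≤ f v) (hg0 : ∀ w ∈ T, 0 ≤ g w)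
    (hfg : ∀ v ∈ S, ∀ w ∈ T, 0 < P v w → f v ≤ g w) :
    ∑ v ∈ S, f v ≤ θ * ∑ w ∈ T, g w := by
  calc ∑ v ∈ S, f v ≤ ∑ v ∈ S, ∑ w ∈ T, P v w * f v := by
        apply Finset.sum_le_sum
        intro v hv
        rw [← Finset.sum_mul]
        have := mul_le_mul_of_nonneg_right (hP1 v hv) (hf0 v hv)
        linarith
    _ ≤ ∑ v ∈ S, ∑ w ∈ T, P v w * g w := by
        apply Finset.sum_le_sum
        intro v hv
        apply Finset.sum_le_sum
        intro w hw
        rcases (hP0 v hv w hw).eq_or_lt with h | h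
        · rw [← h]; simp
        · exact mul_le_mul_of_nonneg_left (hfg v hv w hw h) h.le
    _ = ∑ w ∈ T, (∑ v ∈ S, P v w) * g w := by
        rw [Finset.sum_comm]
        apply Finset.sum_congr rfl
        intro w _
        rw [Finset.sum_mul]
    _ ≤ ∑ w ∈ T, θ * g w := by
        apply Finset.sum_le_sum
        intro w hw
        exact mul_le_mul_of_nonneg_right (hP2 w hw) (hg0 w hw)
    _ = θ * ∑ w ∈ T, g w := by rw [Finset.mul_sum]

/-- The final summation: halving on the levels below T gives mean level at least T/2. -/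
theorem level_sum {α : Type*} (S : Finset α) (r : α → ℕ) (f : α → ℝ) (hf : ∀ v ∈ S, 0 ≤ f v)
    (T : ℕ)
    (h : ∀ i < T, ∑ v ∈ S.filter (fun v => r v = i), f v
      ≤ 1 / 2 * ∑ v ∈ S.filter (fun v => r v = i + 1), f v) :
    (T : ℝ) * ∑ v ∈ S, f v ≤ 2 * ∑ v ∈ S, f v * r v := by
  classical
  set A : ℕ → ℝ := fun i => ∑ v ∈ S.filter (fun v => r v = i), f v with hA
  have hA0 : ∀ i, 0 ≤ A i := fun i =>
    Finset.sum_nonneg fun v hv => hf v (Finset.mem_filter.mp hv).1
  have h1 : ∑ i ∈ Finset.range T, A i ≤ A T := by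
    have h2 : ∑ i ∈ Finset.range T, A i ≤ ∑ i ∈ Finset.range T, 1 / 2 * A (i + 1) :=
      Finset.sum_le_sum fun i hi => h i (Finset.mem_range.mp hi)
    rw [← Finset.mul_sum] at h2
    have h3 : ∑ i ∈ Finset.range T, A (i + 1) = ∑ i ∈ Finset.range T, A i + A T - A 0 := by
      have := Finset.sum_range_succ A T
      have h4 := Finset.sum_range_succ' A T
      linarith
    have := hA0 0
    rw [h3] at h2
    linarith
  have hlow : ∑ i ∈ Finset.range T, A i = ∑ v ∈ S.filter (fun v => r v < T), f v := by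
    have := Finset.sum_fiberwise_of_maps_to (s := S.filter (fun v => r v < T))
      (t := Finset.range T) (g := r) (f := f) (fun v hv => by
        rw [Finset.mem_range]; exact (Finset.mem_filter.mp hv).2)
    rw [← this]
    apply Finset.sum_congr rfl
    intro i hi
    rw [Finset.mem_range] at hi
    apply Finset.sum_congr _ (fun _ _ => rfl)
    ext v
    simp only [Finset.mem_filter]
    constructor
    · rintro ⟨a, b⟩; exact ⟨⟨a, by omega⟩, b⟩
    · rintro ⟨⟨a, _⟩, b⟩; exact ⟨a, b⟩
  have hsplit : ∑ v ∈ S, f v = ∑ v ∈ S.filter (fun v => r v < T), f v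
      + ∑ v ∈ S.filter (fun v => ¬ r v < T), f v :=
    (Finset.sum_filter_add_sum_filter_not S (fun v => r v < T) f).symm
  have hATle : A T ≤ ∑ v ∈ S.filter (fun v => ¬ r v < T), f v := by
    apply Finset.sum_le_sum_of_subset_of_nonneg
    · intro v hv
      rw [Finset.mem_filter] at hv ⊢
      exact ⟨hv.1, by omega⟩
    · intro v hv _
      exact hf v (Finset.mem_filter.mp hv).1
  have hhigh : (T : ℝ) * ∑ v ∈ S.filter (fun v => ¬ r v < T), f v ≤ ∑ v ∈ S, f v * r v := by
    rw [Finset.mul_sum]
    calc ∑ v ∈ S.filter (fun v => ¬ r v < T), (T : ℝ) * f v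
        ≤ ∑ v ∈ S.filter (fun v => ¬ r v < T), f v * r v := by
          apply Finset.sum_le_sum
          intro v hv
          rw [Finset.mem_filter] at hv
          have h5 : (T : ℝ) ≤ r v := by exact_mod_cast not_lt.mp hv.2
          rw [mul_comm]
          exact mul_le_mul_of_nonneg_left h5 (hf v hv.1)
      _ ≤ ∑ v ∈ S, f v * r v := by
          apply Finset.sum_le_sum_of_subset_of_nonneg (Finset.filter_subset _ _)
          intro v hv _
          exact mul_nonneg (hf v hv) (Nat.cast_nonneg _)
  have hT0 : (0 : ℝ) ≤ T := Nat.cast_nonneg _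
  have h7 : (T : ℝ) * ∑ v ∈ S.filter (fun v => r v < T), f v
      ≤ (T : ℝ) * ∑ v ∈ S.filter (fun v => ¬ r v < T), f v := by
    apply mul_le_mul_of_nonneg_left _ hT0
    rw [← hlow]
    linarith
  rw [hsplit, mul_add]
  linarith

/-- The trivial bound used for small k: a top element of level k. -/
theorem small_case {α : Type*} (S : Finset α) (r : α → ℕ) (f : α → ℝ) (hf : ∀ v ∈ S, 0 ≤ f v)
    (k B : ℕ) (hB : S.card ≤ B) (top : α) (ht : top ∈ S) (hr : k ≤ r top)
    (htop : ∀ v ∈ S, f v ≤ f top) :
    (k : ℝ) * ∑ v ∈ S, f v ≤ B * ∑ v ∈ S, f v * r v := by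
  have h1 : ∑ v ∈ S, f v ≤ B * f top := by
    calc ∑ v ∈ S, f v ≤ ∑ _v ∈ S, f top := Finset.sum_le_sum htop
      _ = S.card * f top := by rw [Finset.sum_const, nsmul_eq_mul]
      _ ≤ B * f top := by
          apply mul_le_mul_of_nonneg_right _ (hf top ht)
          exact_mod_cast hB
  have h2 : f top * k ≤ ∑ v ∈ S, f v * r v := by
    calc f top * k ≤ f top * r top := by
          apply mul_le_mul_of_nonneg_left _ (hf top ht)
          exact_mod_cast hr
      _ ≤ _ := Finset.single_le_sum (f := fun v => f v * (r v : ℝ))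
          (fun v hv => mul_nonneg (hf v hv) (Nat.cast_nonneg _)) ht
  have hk0 : (0 : ℝ) ≤ k := Nat.cast_nonneg _
  have hB0 : (0 : ℝ) ≤ B := Nat.cast_nonneg _
  calc (k : ℝ) * ∑ v ∈ S, f v ≤ k * (B * f top) := mul_le_mul_of_nonneg_left h1 hk0
    _ = B * (f top * k) := by ring
    _ ≤ _ := mul_le_mul_of_nonneg_left h2 hB0

end P235S541
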