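import Vale.Agent.P235.S.H885.Defs
import Vale.Agent.P235.S.H541.Comb

/-!
Exact forms of (P1), (P2) and of the final summation for helper885.
usable_bad_gen : (M + 1 = 2 ^ N)  M * #(not usable) <= (N + 1) * k
usable_bad255  : 28 * #(not usable for M = 255) <= k
usable_bad63   : 8 * #(not usable for M = 63) <= k
maxineq_clean  : #(not clean) <= 2 * M * #C
summation      : the level sum.
-/

namespace P235S541

open Finset Vale.Agent.P235.S.H885

/-- Dyadic upper bound for a harmonic sum. -/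
theorem harm_upper (q : ℕ) (hq : 0 < q) (N : ℕ) :
    ∑ i ∈ Finset.Ioc q (2 ^ N * q), (1 : ℝ) / (i : ℝ) ≤ N := by
  induction N with
  | zero => simp
  | succ N ih =>
    have h1 : q ≤ 2 ^ N * q := Nat.le_mul_of_pos_left q (by positivity)
    have h2 : 2 ^ N * q ≤ 2 ^ (N + 1) * q := by
      apply Nat.mul_le_mul_right
      exact Nat.pow_le_pow_right (by norm_num) (Nat.le_succ N)
    have hsplit : ∑ i ∈ Finset.Ioc q (2 ^ (N + 1) * q), (1 : ℝ) / (i : ℝ)
        = ∑ i ∈ Finset.Ioc q (2 ^ N * q), (1 : ℝ) / (i : ℝ)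
          + ∑ i ∈ Finset.Ioc (2 ^ N * q) (2 ^ (N + 1) * q), (1 : ℝ) / (i : ℝ) := by
      rw [← Finset.sum_union]
      · rw [Finset.Ioc_union_Ioc_eq_Ioc h1 h2]
      · rw [Finset.disjoint_left]
        intro x hx hx'
        rw [Finset.mem_Ioc] at hx hx'
        omega
    rw [hsplit]
    have h3 : ∑ i ∈ Finset.Ioc (2 ^ N * q) (2 ^ (N + 1) * q), (1 : ℝ) / (i : ℝ) ≤ 1 := by
      have hpos : 0 < 2 ^ N * q := by positivity
      have h4 : ∀ i ∈ Finset.Ioc (2 ^ N * q) (2 ^ (N + 1) * q),
          (1 : ℝ) / (i : ℝ) ≤ (1 : ℝ) / ((2 ^ N * q : ℕ) : ℝ) := by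
        intro i hi
        rw [Finset.mem_Ioc] at hi
        apply one_div_le_one_div_of_le (by exact_mod_cast hpos)
        exact_mod_cast hi.1.le
      refine le_trans (Finset.sum_le_sum h4) ?_
      rw [Finset.sum_const, Nat.card_Ioc, nsmul_eq_mul]
      have h6 : 2 ^ (N + 1) * q - 2 ^ N * q = 2 ^ N * q := by
        rw [pow_succ]; have : 2 ^ N * 2 * q = 2 ^ N * q + 2 ^ N * q := by ring
        omega
      rw [h6]
      have : ((2 ^ N * q : ℕ) : ℝ) ≠ 0 := by exact_mod_cast hpos.ne'
      rw [mul_one_div_cancel this]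
    push_cast
    linarith

/-- Rearrangement: if every j in B has F j at least its rank from the top and 2^N * F j > #B,
then the sum of 1/F j is at most N + 1. -/
theorem rank_sum (B : Finset ℕ) (F : ℕ → ℕ) (N : ℕ)
    (h1 : ∀ j ∈ B, (B.filter fun j' => j ≤ j').card ≤ F j)
    (h2 : ∀ j ∈ B, B.card ≤ 2 ^ N * F j) :
    ∑ j ∈ B, (1 : ℝ) / (F j : ℝ) ≤ N + 1 := by
  rcases B.eq_empty_or_nonempty with rfl | hne
  · simp; positivity
  set n := B.card with hn
  have hnpos : 0 < n := Finset.card_pos.mpr hne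
  obtain ⟨j0, hj0, hmin⟩ := Finset.exists_min_image B F hne
  set q := F j0 with hq
  have hqpos : 0 < q := by
    have := h2 j0 hj0
    rcases Nat.eq_zero_or_pos q with h | h
    · rw [← hq, h] at this; omega
    · exact h
  set rk : ℕ → ℕ := fun j => (B.filter fun j' => j ≤ j').card with hrk
  have hinj : Set.InjOn rk (B : Set ℕ) := by
    intro a ha b hb hab
    by_contra hne'
    have key : ∀ a ∈ B, ∀ b ∈ B, a < b → rk b < rk a := by
      intro a ha b hb hlt
      apply Finset.card_lt_card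
      rw [Finset.ssubset_iff_of_subset]
      · exact ⟨a, by simp [ha], by simp [hlt]⟩
      · intro x hx
        rw [Finset.mem_filter] at hx ⊢
        exact ⟨hx.1, by omega⟩
    rcases Nat.lt_or_gt_of_ne hne' with h | h
    · have := key a ha b hb h; omega
    · have := key b hb a ha h; omega
  have hle : ∀ j ∈ B, (1 : ℝ) / (F j : ℝ) ≤ 1 / ((max (rk j) q : ℕ) : ℝ) := by
    intro j hj
    have ha : max (rk j) q ≤ F j := max_le (h1 j hj) (hmin j hj)
    have hb : 0 < max (rk j) q := lt_of_lt_of_le hqpos (le_max_right _ _)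
    apply one_div_le_one_div_of_le (by exact_mod_cast hb)
    exact_mod_cast ha
  have himg : B.image rk ⊆ Finset.Ioc 0 n := by
    intro x hx
    rw [Finset.mem_image] at hx
    obtain ⟨j, hj, rfl⟩ := hx
    rw [Finset.mem_Ioc]
    refine ⟨Finset.card_pos.mpr ⟨j, by simp [hj]⟩, ?_⟩
    exact Finset.card_le_card (Finset.filter_subset _ _)
  calc ∑ j ∈ B, (1 : ℝ) / (F j : ℝ) ≤ ∑ j ∈ B, (1 : ℝ) / ((max (rk j) q : ℕ) : ℝ) :=
        Finset.sum_le_sum hle
    _ = ∑ i ∈ B.image rk, (1 : ℝ) / ((max i q : ℕ) : ℝ) := by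
        rw [Finset.sum_image (f := fun i : ℕ => (1 : ℝ) / ((max i q : ℕ) : ℝ)) hinj]
    _ ≤ ∑ i ∈ Finset.Ioc 0 n, (1 : ℝ) / ((max i q : ℕ) : ℝ) :=
        Finset.sum_le_sum_of_subset_of_nonneg himg (fun _ _ _ => by positivity)
    _ ≤ ∑ i ∈ Finset.Ioc 0 (2 ^ N * q), (1 : ℝ) / ((max i q : ℕ) : ℝ) := by
        apply Finset.sum_le_sum_of_subset_of_nonneg
        · intro i hi
          rw [Finset.mem_Ioc] at hi ⊢
          exact ⟨hi.1, le_trans hi.2 (h2 j0 hj0)⟩
        · intro _ _ _; positivity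
    _ = ∑ i ∈ Finset.Ioc 0 q, (1 : ℝ) / ((max i q : ℕ) : ℝ)
        + ∑ i ∈ Finset.Ioc q (2 ^ N * q), (1 : ℝ) / ((max i q : ℕ) : ℝ) := by
        rw [← Finset.sum_union]
        · rw [Finset.Ioc_union_Ioc_eq_Ioc (Nat.zero_le _)
            (Nat.le_mul_of_pos_left q (by positivity))]
        · rw [Finset.disjoint_left]
          intro x hx hx'
          rw [Finset.mem_Ioc] at hx hx'
          omega
    _ ≤ 1 + N := by
        apply add_le_add
        · have : ∀ i ∈ Finset.Ioc 0 q, (1 : ℝ) / ((max i q : ℕ) : ℝ) = 1 / (q : ℝ) := by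
            intro i hi
            rw [Finset.mem_Ioc] at hi
            rw [max_eq_right hi.2]
          rw [Finset.sum_congr rfl this, Finset.sum_const, Nat.card_Ioc, nsmul_eq_mul,
            Nat.sub_zero]
          have h0 : (q : ℝ) ≠ 0 := by exact_mod_cast hqpos.ne'
          rw [mul_one_div_cancel h0]
        · have : ∀ i ∈ Finset.Ioc q (2 ^ N * q), (1 : ℝ) / ((max i q : ℕ) : ℝ) = 1 / (i : ℝ) := by
            intro i hi
            rw [Finset.mem_Ioc] at hi
            rw [max_eq_left hi.1.le]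
          rw [Finset.sum_congr rfl this]
          exact harm_upper q hqpos N
    _ = N + 1 := by ring

/-- The interval lemma with the good constant. -/
theorem interval_lemma2 (s : Finset ℕ) (l F : ℕ → ℕ) (k N M : ℕ) (hM : 2 ^ N = M + 1)
    (hk : ∀ c ∈ s, c < k)
    (hF : ∀ c ∈ s, (s.filter fun c' => c ≤ c' ∧ l c' < c).card ≤ F c)
    (hl : ∀ c ∈ s, l c < c)
    (hlong : ∀ c ∈ s, M * F c ≤ c - l c) :
    M * s.card ≤ (N + 1) * k := by
  have hF0 : ∀ c ∈ s, 0 < F c := by
    intro c hc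
    refine lt_of_lt_of_le ?_ (hF c hc)
    exact Finset.card_pos.mpr ⟨c, by simp [hc, hl c hc]⟩
  have h1 : ∀ c ∈ s, (M : ℝ) = ∑ t ∈ Finset.Ioc (c - M * F c) c, (1 : ℝ) / (F c : ℝ) := by
    intro c hc
    have h := hlong c hc
    rw [Finset.sum_const, Nat.card_Ioc, nsmul_eq_mul]
    have h' : c - (c - M * F c) = M * F c := by omega
    rw [h']
    have h0 : (F c : ℝ) ≠ 0 := by exact_mod_cast (hF0 c hc).ne'
    push_cast
    field_simp
  have h2 : ∑ c ∈ s, ∑ t ∈ Finset.Ioc (c - M * F c) c, (1 : ℝ) / (F c : ℝ)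
      = ∑ t ∈ Finset.range k, ∑ c ∈ s.filter (fun c => c - M * F c < t ∧ t ≤ c),
          (1 : ℝ) / (F c : ℝ) := by
    have h3 : ∀ c ∈ s, ∑ t ∈ Finset.Ioc (c - M * F c) c, (1 : ℝ) / (F c : ℝ)
        = ∑ t ∈ Finset.range k, if (c - M * F c < t ∧ t ≤ c) then (1 : ℝ) / (F c : ℝ) else 0 := by
      intro c hc
      rw [← Finset.sum_filter]
      apply Finset.sum_congr _ (fun _ _ => rfl)
      ext t
      have := hk c hc
      simp only [Finset.mem_Ioc, Finset.mem_filter, Finset.mem_range]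
      constructor
      · rintro ⟨a, b⟩; exact ⟨by omega, a, b⟩
      · rintro ⟨_, a, b⟩; exact ⟨a, b⟩
    rw [Finset.sum_congr rfl h3, Finset.sum_comm]
    apply Finset.sum_congr rfl
    intro t _
    rw [Finset.sum_filter]
  have h4 : ∀ t ∈ Finset.range k, ∑ c ∈ s.filter (fun c => c - M * F c < t ∧ t ≤ c),
          (1 : ℝ) / (F c : ℝ) ≤ (N : ℝ) + 1 := by
    intro t _
    set B := s.filter (fun c => c - M * F c < t ∧ t ≤ c) with hB
    have hr : ∀ j ∈ B, (B.filter fun j' => j ≤ j').card ≤ F j := by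
      intro j hj
      have hj' := hj
      rw [hB, Finset.mem_filter] at hj'
      refine le_trans (Finset.card_le_card ?_) (hF j hj'.1)
      intro x hx
      rw [Finset.mem_filter, hB, Finset.mem_filter] at hx
      rw [Finset.mem_filter]
      have := hlong x hx.1.1
      have := hl x hx.1.1
      refine ⟨hx.1.1, hx.2, ?_⟩
      omega
    apply rank_sum B F N hr
    intro j hj
    have h5 := hr j hj
    have hj' := hj
    rw [hB, Finset.mem_filter] at hj'
    have h6 : B ⊆ (B.filter fun j' => j ≤ j') ∪ Finset.Ico t j := by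
      intro x hx
      have hx' := hx
      rw [hB, Finset.mem_filter] at hx'
      rw [Finset.mem_union, Finset.mem_filter, Finset.mem_Ico]
      rcases lt_or_ge x j with h | h
      · right; exact ⟨hx'.2.2, h⟩
      · left; exact ⟨hx, h⟩
    have h7 := Finset.card_le_card h6
    have h8 := Finset.card_union_le (B.filter fun j' => j ≤ j') (Finset.Ico t j)
    rw [Nat.card_Ico] at h8
    rw [hM, add_mul, one_mul]
    have h9 := hlong j hj'.1
    have h10 := hl j hj'.1
    omega
  have h10 : (M : ℝ) * (s.card : ℝ) ≤ ((N : ℝ) + 1) * k := by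
    calc (M : ℝ) * (s.card : ℝ) = ∑ c ∈ s, (M : ℝ) := by
          rw [Finset.sum_const, nsmul_eq_mul, mul_comm]
      _ = ∑ c ∈ s, ∑ t ∈ Finset.Ioc (c - M * F c) c, (1 : ℝ) / (F c : ℝ) :=
          Finset.sum_congr rfl h1
      _ = _ := h2
      _ ≤ ∑ t ∈ Finset.range k, ((N : ℝ) + 1) := Finset.sum_le_sum h4
      _ = ((N : ℝ) + 1) * k := by
          rw [Finset.sum_const, Finset.card_range, nsmul_eq_mul, mul_comm]
  exact_mod_cast h10

variable {k : ℕ}

/-- (P1), general: M + 1 = 2^N. -/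
theorem usable_bad_gen (N M : ℕ) (hM : 2 ^ N = M + 1) (p : Equiv.Perm (Fin k))
    [DecidablePred fun c : Fin k => ¬ Usable M p c] :
    M * (univ.filter fun c : Fin k => ¬ Usable M p c).card ≤ (N + 1) * k := by
  classical
  set B := univ.filter fun c : Fin k => ¬ Usable M p c with hB
  have hBc : ∀ c ∈ B, p c < c ∧ (p c).val + M * flux p c < c.val := by
    intro c hc
    rw [hB, Finset.mem_filter] at hc
    have h := hc.2
    unfold Usable at h
    push Not at h
    exact h
  let l : ℕ → ℕ := fun c => if h : c < k then (p ⟨c, h⟩ : ℕ) else 0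
  let F : ℕ → ℕ := fun c => if h : c < k then flux p ⟨c, h⟩ else 0
  have hl' : ∀ c : Fin k, l (c : ℕ) = p c := by
    intro c; simp [l, c.2]
  have hF' : ∀ c : Fin k, F (c : ℕ) = flux p c := by
    intro c; simp [F, c.2]
  have hcard : (B.map Fin.valEmbedding).card = B.card := Finset.card_map _
  rw [← hcard]
  apply interval_lemma2 (B.map Fin.valEmbedding) l F k N M hM
  · intro c hc
    rw [Finset.mem_map] at hc
    obtain ⟨c', _, rfl⟩ := hc
    exact c'.2
  · intro c hc
    rw [Finset.mem_map] at hc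
    obtain ⟨c', hc', rfl⟩ := hc
    change _ ≤ F (c' : ℕ)
    rw [hF' c', flux, flux_eq]
    have : ((B.map Fin.valEmbedding).filter
        fun x => (Fin.valEmbedding c' : ℕ) ≤ x ∧ l x < (Fin.valEmbedding c' : ℕ))
        ⊆ (univ.filter fun a : Fin k => c' ≤ a ∧ p a < c').map Fin.valEmbedding := by
      intro x hx
      rw [Finset.mem_filter, Finset.mem_map] at hx
      obtain ⟨⟨a, ha, rfl⟩, h1, h2⟩ := hx
      rw [Finset.mem_map]
      refine ⟨a, ?_, rfl⟩
      simp only [Finset.mem_filter, Finset.mem_univ, true_and]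
      change l (a : ℕ) < _ at h2
      rw [hl'] at h2
      exact ⟨h1, h2⟩
    have h3 := Finset.card_le_card this
    rw [Finset.card_map] at h3
    exact h3
  · intro c hc
    rw [Finset.mem_map] at hc
    obtain ⟨c', hc', rfl⟩ := hc
    change l (c' : ℕ) < c'
    rw [hl']
    exact (hBc c' hc').1
  · intro c hc
    rw [Finset.mem_map] at hc
    obtain ⟨c', hc', rfl⟩ := hc
    change M * F (c' : ℕ) ≤ (c' : ℕ) - l (c' : ℕ)
    rw [hl', hF']
    have := (hBc c' hc').2
    omega

/-- (P1) with M = 255. -/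
theorem usable_bad255 (p : Equiv.Perm (Fin k)) [DecidablePred fun c : Fin k => ¬ Usable 255 p c] :
    28 * (univ.filter fun c : Fin k => ¬ Usable 255 p c).card ≤ k := by
  have := usable_bad_gen 8 255 (by norm_num) p
  omega

/-- (P1) with M = 63. -/
theorem usable_bad63 (p : Equiv.Perm (Fin k)) [DecidablePred fun c : Fin k => ¬ Usable 63 p c] :
    9 * (univ.filter fun c : Fin k => ¬ Usable 63 p c).card ≤ k := by
  have := usable_bad_gen 6 63 (by norm_num) p
  omega

/-- (P2). -/
theorem maxineq_clean (M : ℕ) (C : Finset (Fin k))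
    [DecidablePred fun c : Fin k => ¬ Clean M C c] :
    (univ.filter fun c : Fin k => ¬ Clean M C c).card ≤ 2 * M * C.card := by
  classical
  refine le_trans (Finset.card_le_card ?_) (maxineq_fin k (2 * M) C)
  intro c hc
  rw [Finset.mem_filter] at hc
  have h := hc.2
  unfold Clean at h
  push Not at h
  obtain ⟨b, hb, hlt⟩ := h
  rw [Finset.mem_filter]
  refine ⟨Finset.mem_univ _, c.val - b.val, ?_, ?_⟩
  · rw [Fin.lt_def] at hb; omega
  · have heq : (C.filter fun x : Fin k => (c : ℕ) ≤ (x : ℕ) + (c.val - b.val) ∧ x < c)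
        = (C.filter fun x => b ≤ x ∧ x < c) := by
      ext x
      simp only [Finset.mem_filter]
      rw [Fin.lt_def] at hb
      constructor
      · rintro ⟨h1, h2, h3⟩
        refine ⟨h1, ?_, h3⟩
        rw [Fin.le_def]; omega
      · rintro ⟨h1, h2, h3⟩
        refine ⟨h1, ?_, h3⟩
        rw [Fin.le_def] at h2; omega
    rw [heq]
    exact hlt

/-- The final summation (even without the -2). -/
theorem summation' (A : ℕ → ℝ) (R k : ℕ) (h0 : ∀ i, 0 ≤ A i)
    (hA : ∀ r < R, 2 * A r ≤ A (r + 1)) (hR : R ≤ k) :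
    (R : ℝ) * ∑ r ∈ Finset.range (k + 1), A r ≤ 2 * ∑ r ∈ Finset.range (k + 1), (r : ℝ) * A r := by
  have h1 : ∑ i ∈ Finset.range R, A i ≤ A R := by
    have h2 : ∑ i ∈ Finset.range R, 2 * A i ≤ ∑ i ∈ Finset.range R, A (i + 1) :=
      Finset.sum_le_sum fun i hi => hA i (Finset.mem_range.mp hi)
    rw [← Finset.mul_sum] at h2
    have h3 : ∑ i ∈ Finset.range R, A (i + 1) = ∑ i ∈ Finset.range R, A i + A R - A 0 := by
      have := Finset.sum_range_succ A R
      have h4 := Finset.sum_range_succ' A R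
      linarith
    have := h0 0
    linarith
  have hsplit : ∀ g : ℕ → ℝ, ∑ r ∈ Finset.range (k + 1), g r
      = ∑ r ∈ Finset.range R, g r + ∑ r ∈ Finset.Ico R (k + 1), g r := by
    intro g
    rw [Finset.range_eq_Ico, Finset.range_eq_Ico]
    exact (Finset.sum_Ico_consecutive g (Nat.zero_le R) (by omega)).symm
  rw [hsplit A, hsplit (fun r => (r : ℝ) * A r)]
  have h4 : A R ≤ ∑ r ∈ Finset.Ico R (k + 1), A r :=
    Finset.single_le_sum (fun i _ => h0 i) (by rw [Finset.mem_Ico]; omega)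
  have h5 : (R : ℝ) * ∑ r ∈ Finset.Ico R (k + 1), A r
      ≤ ∑ r ∈ Finset.Ico R (k + 1), (r : ℝ) * A r := by
    rw [Finset.mul_sum]
    apply Finset.sum_le_sum
    intro i hi
    rw [Finset.mem_Ico] at hi
    exact mul_le_mul_of_nonneg_right (by exact_mod_cast hi.1) (h0 i)
  have h6 : 0 ≤ ∑ r ∈ Finset.range R, (r : ℝ) * A r :=
    Finset.sum_nonneg fun i _ => mul_nonneg (Nat.cast_nonneg _) (h0 i)
  have hR0 : (0 : ℝ) ≤ R := Nat.cast_nonneg _
  have h7 : (R : ℝ) * ∑ i ∈ Finset.range R, A i ≤ (R : ℝ) * ∑ r ∈ Finset.Ico R (k + 1), A r :=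
    mul_le_mul_of_nonneg_left (le_trans h1 h4) hR0
  rw [mul_add]
  linarith

/-- The final summation in the form asked for. -/
theorem summation (A : ℕ → ℝ) (R k : ℕ) (h0 : ∀ i, 0 ≤ A i)
    (hA : ∀ r < R, 2 * A r ≤ A (r + 1)) (hR : R ≤ k) :
    ((R : ℝ) - 2) * ∑ r ∈ Finset.range (k + 1), A r ≤ ∑ r ∈ Finset.range (k + 1), (r : ℝ) * A r := by
  -- decreasing tail: Sum_{r <= i} A r <= 2 * A i for i <= R
  have hpre : ∀ i ≤ R, ∑ r ∈ Finset.range (i + 1), A r ≤ 2 * A i := by
    intro i
    induction i with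
    | zero => intro _; simp; have := h0 0; linarith
    | succ i ih =>
      intro hi
      rw [Finset.sum_range_succ]
      have h1 := ih (by omega)
      have h2 := hA i (by omega)
      linarith
  -- Sum_{r <= R} (R - r) * A r <= 2 * A R
  have hw : ∀ i ≤ R, ∑ r ∈ Finset.range (i + 1), ((i : ℝ) - r) * A r ≤ 2 * A i := by
    intro i
    induction i with
    | zero => intro _; simp; exact h0 0
    | succ i ih =>
      intro hi
      rw [Finset.sum_range_succ]
      have h1 := ih (by omega)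
      have h2 := hA i (by omega)
      have h3 := hpre i (by omega)
      have h4 : ∑ r ∈ Finset.range (i + 1), (((i + 1 : ℕ) : ℝ) - r) * A r
          = ∑ r ∈ Finset.range (i + 1), ((i : ℝ) - r) * A r
            + ∑ r ∈ Finset.range (i + 1), A r := by
        rw [← Finset.sum_add_distrib]
        apply Finset.sum_congr rfl
        intro r _
        push_cast
        ring
      rw [h4]
      have h5 : (((i + 1 : ℕ) : ℝ) - ((i + 1 : ℕ) : ℝ)) * A (i + 1) = 0 := by ring
      rw [h5]
      linarith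
  have h1 := hw R le_rfl
  have hkey : ∑ r ∈ Finset.range (k + 1), ((R : ℝ) - r) * A r
      ≤ ∑ r ∈ Finset.range (R + 1), ((R : ℝ) - r) * A r := by
    have hs : Finset.range (k + 1) = Finset.range (R + 1) ∪ Finset.Ico (R + 1) (k + 1) := by
      ext x
      simp only [Finset.mem_union, Finset.mem_range, Finset.mem_Ico]
      omega
    rw [hs, Finset.sum_union]
    · have : ∑ r ∈ Finset.Ico (R + 1) (k + 1), ((R : ℝ) - r) * A r ≤ 0 := by
        apply Finset.sum_nonpos
        intro i hi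
        rw [Finset.mem_Ico] at hi
        apply mul_nonpos_of_nonpos_of_nonneg _ (h0 i)
        have : (R : ℝ) + 1 ≤ i := by exact_mod_cast hi.1
        linarith
      linarith
    · rw [Finset.disjoint_left]
      intro x hx hx'
      rw [Finset.mem_range] at hx
      rw [Finset.mem_Ico] at hx'
      omega
  have h2 : A R ≤ ∑ r ∈ Finset.range (k + 1), A r :=
    Finset.single_le_sum (fun i _ => h0 i) (by rw [Finset.mem_range]; omega)
  have h3 : ∑ r ∈ Finset.range (k + 1), ((R : ℝ) - r) * A r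
      = (R : ℝ) * ∑ r ∈ Finset.range (k + 1), A r - ∑ r ∈ Finset.range (k + 1), (r : ℝ) * A r := by
    rw [Finset.mul_sum, ← Finset.sum_sub_distrib]
    apply Finset.sum_congr rfl
    intro r _
    ring
  rw [sub_mul]
  linarith

end P235S541
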