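import Vale.Agent.P235.S.H885.Main
import Vale.Agent.P235.S.H541.Exact

/-!
P235, static lemma (S) in the half-state model of helper885: the final summation.
c = 1 / 258064.
-/

namespace P235S541

open Finset Vale.Agent.P235.S.H885

variable {k : ℕ}

/-- The level sums of F. -/
noncomputable def A (F : Half k × Half k → ℝ) (r : ℕ) : ℝ := ∑ q ∈ lev k r, F q

theorem A_nonneg {F : Half k × Half k → ℝ} (hF0 : ∀ q, 0 ≤ F q) (r : ℕ) : 0 ≤ A F r :=
  Finset.sum_nonneg fun q _ => hF0 q

/-- Doubling below level k / 64516. -/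
theorem step_lt {F : Half k × Half k → ℝ} (hF0 : ∀ q, 0 ≤ F q) (hF : Mono F) {r : ℕ}
    (hr : r < k / 64516) : 2 * A F r ≤ A F (r + 1) := by
  have h1 : 64516 * (r + 1) ≤ k := by
    have := Nat.div_mul_le_self k 64516
    have h2 : (r + 1) * 64516 ≤ k / 64516 * 64516 := Nat.mul_le_mul_right _ hr
    omega
  apply level_step (M := 63)
  · intro p
    have := usable_bad63 p
    omega
  · intro C
    exact maxineq_clean 63 C
  · omega
  · have : (2 * 63 + 1) ^ 2 = 16129 := by norm_num
    rw [this]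
    omega
  · exact hF0
  · exact hF

/-- The tail: exponential decay below the level R = k / 64516. -/
theorem tail {F : Half k × Half k → ℝ} (hF0 : ∀ q, 0 ≤ F q) (hF : Mono F) {r : ℕ}
    (j : ℕ) (hr : r + j ≤ k / 64516) : 2 ^ j * A F r ≤ A F (r + j) := by
  induction j with
  | zero => simp
  | succ j ih =>
    have h1 := ih (by omega)
    have h2 := step_lt hF0 hF (r := r + j) (by omega)
    calc (2 : ℝ) ^ (j + 1) * A F r = 2 * (2 ^ j * A F r) := by ring
      _ ≤ 2 * A F (r + j) := by linarith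
      _ ≤ A F (r + j + 1) := h2

/-- Level 0 is dominated by level 1. -/
theorem level_zero {F : Half k × Half k → ℝ} (hF0 : ∀ q, 0 ≤ F q) (hF : Mono F) (hk : 0 < k) :
    A F 0 ≤ A F 1 := by
  classical
  let z : Fin k := ⟨0, hk⟩
  let g : Half k × Half k → Half k × Half k := fun q => (upd q.1 z z, upd q.2 z z)
  have hz : ∀ p : Equiv.Perm (Fin k), z ≤ p z := fun p => by
    rw [Fin.le_def]; exact Nat.zero_le _
  have hcand : ∀ (C : Finset (Fin k)) (p : Equiv.Perm (Fin k)), z ∈ cand C p z := by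
    intro C p
    unfold cand
    rw [if_pos (hz p)]
    exact mem_singleton_self _
  have hlev : ∀ q ∈ lev k 0, q.1.1 = ∅ ∧ q.2.1 = ∅ := by
    intro q hq
    have := mem_lev.1 hq
    exact ⟨Finset.card_eq_zero.1 this.2.2.1, Finset.card_eq_zero.1 this.2.2.2⟩
  have hinj : Set.InjOn g (lev k 0 : Set (Half k × Half k)) := by
    intro q hq q' hq' he
    have h1 := hlev q hq
    have h2 := hlev q' hq'
    have e1 : upd q.1 z z = upd q'.1 z z := congrArg Prod.fst he
    have e2 : upd q.2 z z = upd q'.2 z z := congrArg Prod.snd he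
    refine Prod.ext ?_ ?_
    · rw [← dnd_upd (x := q.1) (c := z) (by rw [h1.1]; exact notMem_empty _) z, e1,
        dnd_upd (by rw [h2.1]; exact notMem_empty _)]
    · rw [← dnd_upd (x := q.2) (c := z) (by rw [h1.2]; exact notMem_empty _) z, e2,
        dnd_upd (by rw [h2.2]; exact notMem_empty _)]
  unfold A
  calc ∑ q ∈ lev k 0, F q ≤ ∑ q ∈ lev k 0, F (g q) := by
        apply Finset.sum_le_sum
        intro q hq
        have hq' := mem_lev.1 hq
        have h1 := hlev q hq
        apply hF q hq'.1 hq'.2.1 (by rw [h1.1, h1.2])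
        · rw [h1.1]; exact notMem_empty _
        · rw [h1.2]; exact notMem_empty _
        · rw [h1.1, h1.2]
        · exact hcand _ _
        · exact hcand _ _
    _ = ∑ q ∈ (lev k 0).image g, F q := by rw [Finset.sum_image hinj]
    _ ≤ ∑ q ∈ lev k (0 + 1), F q := by
        apply Finset.sum_le_sum_of_subset_of_nonneg
        · intro q hq
          obtain ⟨q0, hq0, rfl⟩ := mem_image.1 hq
          have hq' := mem_lev.1 hq0
          have h1 := hlev q0 hq0
          rw [mem_lev]
          refine ⟨ok_upd hq'.1 (hcand _ _), ok_upd hq'.2.1 (hcand _ _), ?_, ?_⟩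
          · show (insert z q0.1.1).card = 0 + 1
            rw [h1.1]; simp
          · show (insert z q0.2.1).card = 0 + 1
            rw [h1.2]; simp
        · intro q _ _
          exact hF0 q

/-- (S) in the half-state model. -/
theorem half_gamma (k : ℕ) (F : Half k × Half k → ℝ) (hF0 : ∀ q, 0 ≤ F q) (hF : Mono F) :
    (1 / 258064 : ℝ) * k * ∑ r ∈ range (k + 1), ∑ q ∈ lev k r, F q
      ≤ ∑ r ∈ range (k + 1), (r : ℝ) * ∑ q ∈ lev k r, F q := by
  change (1 / 258064 : ℝ) * k * ∑ r ∈ range (k + 1), A F r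
      ≤ ∑ r ∈ range (k + 1), (r : ℝ) * A F r
  have h0 : ∀ i, 0 ≤ A F i := A_nonneg hF0
  have hS0 : 0 ≤ ∑ r ∈ range (k + 1), A F r := Finset.sum_nonneg fun i _ => h0 i
  have hT0 : 0 ≤ ∑ r ∈ range (k + 1), (r : ℝ) * A F r :=
    Finset.sum_nonneg fun i _ => mul_nonneg (Nat.cast_nonneg _) (h0 i)
  rcases Nat.eq_zero_or_pos k with hk | hk
  · subst hk; simp
  rcases lt_or_ge k 64516 with hsmall | hlarge
  · -- small k
    have h1 := level_zero hF0 hF hk
    have h2 : ∑ r ∈ range (k + 1), A F r ≤ 2 * ∑ r ∈ range (k + 1), (r : ℝ) * A F r := by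
      rw [Finset.sum_range_succ' (fun r => A F r), Finset.sum_range_succ' (fun r => (r : ℝ) * A F r)]
      have h3 : ∑ r ∈ range k, A F (r + 1) ≤ ∑ r ∈ range k, ((r + 1 : ℕ) : ℝ) * A F (r + 1) := by
        apply Finset.sum_le_sum
        intro r _
        have h4 : (1 : ℝ) ≤ ((r + 1 : ℕ) : ℝ) := by exact_mod_cast Nat.succ_pos r
        have := mul_le_mul_of_nonneg_right h4 (h0 (r + 1))
        linarith
      have h5 : A F 1 ≤ ∑ r ∈ range k, A F (r + 1) := by
        have : A F 1 = (fun r => A F (r + 1)) 0 := rfl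
        rw [this]
        exact Finset.single_le_sum (f := fun r => A F (r + 1)) (fun i _ => h0 (i + 1))
          (mem_range.2 hk)
      have h6 : ((0 : ℕ) : ℝ) * A F 0 = 0 := by simp
      rw [h6]
      linarith
    have hk' : (k : ℝ) ≤ 64516 := by exact_mod_cast hsmall.le
    have hk0 : (0 : ℝ) ≤ k := Nat.cast_nonneg _
    have h7 := mul_le_mul_of_nonneg_left h2 hk0
    have h8 : (k : ℝ) * (2 * ∑ r ∈ range (k + 1), (r : ℝ) * A F r)
        ≤ 64516 * (2 * ∑ r ∈ range (k + 1), (r : ℝ) * A F r) :=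
      mul_le_mul_of_nonneg_right hk' (by linarith)
    rw [mul_assoc]
    linarith
  · -- large k
    have h1 := summation' (A F) (k / 64516) k h0 (fun r hr => step_lt hF0 hF hr)
      (Nat.div_le_self _ _)
    have h2 : (k : ℝ) ≤ 129032 * ((k / 64516 : ℕ) : ℝ) := by
      have h3 : k ≤ 129032 * (k / 64516) := by omega
      exact_mod_cast h3
    have h4 := mul_le_mul_of_nonneg_right h2 hS0
    rw [mul_assoc]
    linarith

end P235S541
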