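import Vale.Agent.P235.S.H541.Sum
import Vale.Agent.P235.R2.H549.Gamma

/-!
P235, static lemma (S): from an encoding of the band by pairs of half states to the literal
statement GammaConst of helper549.
-/

namespace P235S541

open Finset Vale.Agent.P235.S.H885 VPBruhat

/-- A state: two half states with the same number of labels. -/
def St {k : ℕ} (q : Half k × Half k) : Prop := Ok q.1 ∧ Ok q.2 ∧ q.1.1.card = q.2.1.card

/-- One Up step which stays in the band. -/
def UpBand {k : ℕ} (v v' : Equiv.Perm (Fin (2 * k))) : Prop := v' ∈ band k ∧ Up v v'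

/-- The five facts about an encoding. -/
structure Enc (enc : ∀ k : ℕ, Half k × Half k → Equiv.Perm (Fin (2 * k))) : Prop where
  inBand : ∀ k q, St q → enc k q ∈ band k
  inj : ∀ k q q', St q → St q' → enc k q = enc k q' → q = q'
  surj : ∀ k v, v ∈ band k → ∃ q, St q ∧ enc k q = v
  flux : ∀ k q, St q → VPBruhat.flux k (enc k q) = q.1.1.card
  move : ∀ k (q : Half k × Half k), St q → ∀ c d a b : Fin k, c ∉ q.1.1 → d ∉ q.2.1 →
    mis q.1.1 c = mis q.2.1 d → a ∈ cand q.1.1 q.1.2 c → b ∈ cand q.2.1 q.2.2 d →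
    Relation.ReflTransGen UpBand (enc k q) (enc k (upd q.1 c a, upd q.2 d b))

theorem gammaConst_of_enc {enc : ∀ k : ℕ, Half k × Half k → Equiv.Perm (Fin (2 * k))}
    (h : Enc enc) : GammaConst (1 / 258064) := by
  classical
  refine ⟨by norm_num, ?_⟩
  intro k U hU
  -- the states over U
  let S : Finset (Half k × Half k) := univ.filter fun q => St q ∧ enc k q ∈ U
  let F : Half k × Half k → ℝ := fun q => if q ∈ S then 1 else 0
  have hF0 : ∀ q, 0 ≤ F q := by
    intro q; simp only [F]; split_ifs <;> norm_num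
  have hup : ∀ v v', Relation.ReflTransGen UpBand v v' → v ∈ U → v' ∈ U := by
    intro v v' hr hv
    induction hr with
    | refl => exact hv
    | tail _ hs ih => exact hU.2 _ _ ih hs.1 hs.2
  have hF : Mono F := by
    intro q h1 h2 h3 c d a b hc hd hm ha hb
    simp only [F]
    by_cases hq : q ∈ S
    · have hq' := (mem_filter.1 hq).2
      have ht : (upd q.1 c a, upd q.2 d b) ∈ S := by
        rw [mem_filter]
        refine ⟨mem_univ _, ⟨ok_upd h1 ha, ok_upd h2 hb, ?_⟩, ?_⟩
        · show (insert c q.1.1).card = (insert d q.2.1).card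
          rw [card_insert_of_notMem hc, card_insert_of_notMem hd, h3]
        · exact hup _ _ (h.move k q ⟨h1, h2, h3⟩ c d a b hc hd hm ha hb) hq'.2
      rw [if_pos hq, if_pos ht]
    · rw [if_neg hq]
      split_ifs <;> norm_num
  have key := half_gamma k F hF0 hF
  -- level sums
  have hfil : ∀ r, (lev k r).filter (fun q => q ∈ S) = S.filter (fun q => q.1.1.card = r) := by
    intro r
    ext q
    simp only [mem_filter (s := lev k r), mem_filter (s := S), mem_lev]
    constructor
    · rintro ⟨⟨_, _, h3, _⟩, h5⟩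
      exact ⟨h5, h3⟩
    · rintro ⟨h5, h3⟩
      have h6 := (mem_filter.1 h5).2.1
      exact ⟨⟨h6.1, h6.2.1, h3, by rw [← h6.2.2, h3]⟩, h5⟩
  have hA : ∀ r, ∑ q ∈ lev k r, F q = ∑ q ∈ S.filter (fun q => q.1.1.card = r), (1 : ℝ) := by
    intro r
    rw [← hfil r, Finset.sum_filter]
  have hmaps : ∀ q ∈ S, q.1.1.card ∈ range (k + 1) := by
    intro q _
    rw [mem_range]
    have := Finset.card_le_univ q.1.1
    rw [Fintype.card_fin] at this
    omega
  have hsum1 : ∑ r ∈ range (k + 1), ∑ q ∈ lev k r, F q = (S.card : ℝ) := by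
    rw [Finset.sum_congr rfl (fun r _ => hA r),
      Finset.sum_fiberwise_of_maps_to hmaps (fun _ => (1 : ℝ))]
    simp
  have hsum2 : ∑ r ∈ range (k + 1), (r : ℝ) * ∑ q ∈ lev k r, F q
      = ∑ q ∈ S, (q.1.1.card : ℝ) := by
    have h1 : ∀ r ∈ range (k + 1), (r : ℝ) * ∑ q ∈ lev k r, F q
        = ∑ q ∈ S.filter (fun q => q.1.1.card = r), (q.1.1.card : ℝ) := by
      intro r _
      rw [hA r, Finset.mul_sum]
      apply Finset.sum_congr rfl
      intro q hq
      rw [(mem_filter.1 hq).2, mul_one]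
    rw [Finset.sum_congr rfl h1,
      Finset.sum_fiberwise_of_maps_to hmaps (fun q => (q.1.1.card : ℝ))]
  have hcardU : S.card = U.card := by
    apply Finset.card_bij (fun q _ => enc k q)
    · intro q hq; exact (mem_filter.1 hq).2.2
    · intro q hq q' hq' he
      exact h.inj k q q' (mem_filter.1 hq).2.1 (mem_filter.1 hq').2.1 he
    · intro v hv
      obtain ⟨q, hq, rfl⟩ := h.surj k v (hU.1 hv)
      exact ⟨q, mem_filter.2 ⟨mem_univ _, hq, hv⟩, rfl⟩
  have hfluxU : ∑ q ∈ S, (q.1.1.card : ℝ) = ∑ v ∈ U, (VPBruhat.flux k v : ℝ) := by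
    apply Finset.sum_bij (fun q _ => enc k q)
    · intro q hq; exact (mem_filter.1 hq).2.2
    · intro q hq q' hq' he
      exact h.inj k q q' (mem_filter.1 hq).2.1 (mem_filter.1 hq').2.1 he
    · intro v hv
      obtain ⟨q, hq, rfl⟩ := h.surj k v (hU.1 hv)
      exact ⟨q, mem_filter.2 ⟨mem_univ _, hq, hv⟩, rfl⟩
    · intro q hq
      rw [h.flux k q (mem_filter.1 hq).2.1]
  rw [hsum1, hsum2, hcardU, hfluxU] at key
  exact key

end P235S541
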